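import Mathlib

/-!
# Row 82 (S0109), package (S) = (B3): the algebra behind the moment-stability lemma

Pure real / inner-product-space algebra; no measure theory.  Helper material only.
-/

set_option autoImplicit false

namespace Crest.Agent.Helper12.OT

open scoped InnerProductSpace

/-- Harmonic-mean bound: if `a * b ≤ P ^ 2` with `a, b, P ≥ 0`, `a + b > 0`, then
`(a + b) / 2 - P ≤ (a - b) ^ 2 / (2 * (a + b))`. -/
lemma half_sum_sub_le {a b P : ℝ} (ha : 0 ≤ a) (hb : 0 ≤ b) (hab : 0 < a + b) (hP : 0 ≤ P)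
    (h : a * b ≤ P ^ 2) : (a + b) / 2 - P ≤ (a - b) ^ 2 / (2 * (a + b)) := by
  have h1 : 2 * (a * b) ≤ P * (a + b) := by
    by_contra hcon
    push Not at hcon
    have h2 : (P * (a + b)) ^ 2 < (2 * (a * b)) ^ 2 := by
      apply pow_lt_pow_left₀ hcon (by positivity) (by norm_num)
    have h3 : a * b * (a + b) ^ 2 ≤ P ^ 2 * (a + b) ^ 2 :=
      mul_le_mul_of_nonneg_right h (by positivity)
    have h4 : 0 ≤ a * b := mul_nonneg ha hb
    nlinarith [sq_nonneg (a - b), mul_nonneg h4 (sq_nonneg (a - b))]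
  rw [le_div_iff₀ (by positivity)]
  nlinarith

/-- Round 1 (second moments), one index. -/
lemma round1_index {R g0 g1 q0 q1 P : ℝ} (hR : 0 < R) (hg0 : 0 ≤ g0) (hg1 : 0 ≤ g1)
    (hq0 : 0 ≤ q0) (hq1 : 0 ≤ q1) (hq0' : q0 ≤ R ^ 2 * g0) (hq1' : q1 ≤ R ^ 2 * g1) (hP : 0 ≤ P)
    (h : ∀ η : ℝ, |η| ≤ 1 / 2 →
      (16 * R ^ 2 * g0 - q0 / (1 - η)) * (16 * R ^ 2 * g1 - q1 / (1 + η)) ≤ P ^ 2) :
    R ^ 2 * ((16 * R ^ 2 * (g0 + g1) / 2 - (q0 + q1) / 2) - P)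
      + 47 / 504 * ((q1 - q0) ^ 2 / (g0 + g1))
      ≤ 128 / 7 * R ^ 4 * ((g1 - g0) ^ 2 / (g0 + g1)) := by
  have hR2 : 0 < R ^ 2 := by positivity
  rcases (add_nonneg hg0 hg1).eq_or_lt with hG | hG
  · -- G = 0
    have h0 : g0 = 0 := by linarith
    have h1 : g1 = 0 := by linarith
    have h2 : q0 = 0 := by nlinarith
    have h3 : q1 = 0 := by nlinarith
    subst h0 h1 h2 h3
    simp only [add_zero, mul_zero, zero_div, zero_sub, sub_self, ne_eq,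
      OfNat.ofNat_ne_zero, not_false_eq_true, zero_pow, div_zero]
    nlinarith
  · set G := g0 + g1 with hGdef
    set η := (q1 - q0) / (2 * (q0 + q1)) with hη
    have hηQ : η * (q0 + q1) = (q1 - q0) / 2 := by
      rcases (add_nonneg hq0 hq1).eq_or_lt with hQ | hQ
      · have h2 : q0 = 0 := by linarith
        have h3 : q1 = 0 := by linarith
        simp [h2, h3]
      · rw [hη]; field_simp
    have hη_abs : |η| ≤ 1 / 2 := by
      rcases (add_nonneg hq0 hq1).eq_or_lt with hQ | hQ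
      · rw [hη, ← hQ]; simp
      · rw [hη, abs_div, abs_of_pos (by positivity : (0:ℝ) < 2 * (q0 + q1)),
          div_le_iff₀ (by positivity)]
        rw [abs_le]; constructor <;> linarith
    obtain ⟨hηl, hηu⟩ := abs_le.mp hη_abs
    have hupos : 0 < 1 - η := by linarith
    have hwpos : 0 < 1 + η := by linarith
    have hD : 0 < (1 - η) * (1 + η) := mul_pos hupos hwpos
    have hD1 : (1 - η) * (1 + η) ≤ 1 := by nlinarith [sq_nonneg η]
    have hD34 : 3 / 4 ≤ (1 - η) * (1 + η) := by nlinarith [sq_nonneg η, abs_le.mp hη_abs]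
    have hPL := h η hη_abs
    set a := 16 * R ^ 2 * g0 - q0 / (1 - η) with ha
    set b := 16 * R ^ 2 * g1 - q1 / (1 + η) with hb
    have hq0u : q0 / (1 - η) ≤ 2 * q0 := by
      rw [div_le_iff₀ hupos]; nlinarith
    have hq1w : q1 / (1 + η) ≤ 2 * q1 := by
      rw [div_le_iff₀ hwpos]; nlinarith
    have ha14 : 14 * R ^ 2 * g0 ≤ a := by rw [ha]; nlinarith
    have hb14 : 14 * R ^ 2 * g1 ≤ b := by rw [hb]; nlinarith
    have ha0 : 0 ≤ a := le_trans (by positivity) ha14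
    have hb0 : 0 ≤ b := le_trans (by positivity) hb14
    have hab14 : 14 * R ^ 2 * G ≤ a + b := by rw [hGdef]; linarith
    have habpos : 0 < a + b := lt_of_lt_of_le (by positivity) hab14
    have key := half_sum_sub_le ha0 hb0 habpos hP hPL
    -- identity 1
    have id1 : (q0 + q1) - q0 / (1 - η) - q1 / (1 + η)
        = (η * (q1 - q0) / 2) / ((1 - η) * (1 + η)) := by
      rw [eq_div_iff hD.ne']
      have e0 : q0 / (1 - η) * ((1 - η) * (1 + η)) = q0 * (1 + η) := by field_simp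
      have e1 : q1 / (1 + η) * ((1 - η) * (1 + η)) = q1 * (1 - η) := by field_simp
      have : ((q0 + q1) - q0 / (1 - η) - q1 / (1 + η)) * ((1 - η) * (1 + η))
          = (q0 + q1) * ((1 - η) * (1 + η)) - q0 * (1 + η) - q1 * (1 - η) := by
        rw [← e0, ← e1]; ring
      rw [this]
      linear_combination (-η) * hηQ
    have id2 : a - b = -(16 * R ^ 2 * (g1 - g0)) + ((q1 - q0) / 2) / ((1 - η) * (1 + η)) := by
      have e : -(q0 / (1 - η)) + q1 / (1 + η) = ((q1 - q0) / 2) / ((1 - η) * (1 + η)) := by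
        rw [eq_div_iff hD.ne']
        have e0 : q0 / (1 - η) * ((1 - η) * (1 + η)) = q0 * (1 + η) := by field_simp
        have e1 : q1 / (1 + η) * ((1 - η) * (1 + η)) = q1 * (1 - η) := by field_simp
        have : (-(q0 / (1 - η)) + q1 / (1 + η)) * ((1 - η) * (1 + η))
            = - (q0 * (1 + η)) + q1 * (1 - η) := by
          rw [← e0, ← e1]; ring
        rw [this]
        linear_combination (-1 : ℝ) * hηQ
      rw [ha, hb]; linarith
    have hηΔ : 0 ≤ η * (q1 - q0) := by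
      rw [hη, div_mul_eq_mul_div, ← sq]
      exact div_nonneg (sq_nonneg _) (by linarith)
    -- lower bound
    have LB : (q1 - q0) ^ 2 / (4 * (R ^ 2 * G)) ≤ (q0 + q1) - q0 / (1 - η) - q1 / (1 + η) := by
      rw [id1]
      have s1 : η * (q1 - q0) / 2 ≤ (η * (q1 - q0) / 2) / ((1 - η) * (1 + η)) := by
        rw [le_div_iff₀ hD]; nlinarith
      refine le_trans ?_ s1
      rcases (add_nonneg hq0 hq1).eq_or_lt with hQ | hQ
      · have h2 : q0 = 0 := by linarith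
        have h3 : q1 = 0 := by linarith
        simp [h2, h3]
      · have e : η * (q1 - q0) / 2 = (q1 - q0) ^ 2 / (4 * (q0 + q1)) := by
          rw [hη]; field_simp; ring
        rw [e]
        apply div_le_div_of_nonneg_left (sq_nonneg _) (by positivity)
        nlinarith
    -- upper bound on (a-b)^2
    have hz : (((q1 - q0) / 2) / ((1 - η) * (1 + η))) ^ 2 ≤ 4 / 9 * (q1 - q0) ^ 2 := by
      rw [div_pow, div_le_iff₀ (by positivity)]
      have : (9:ℝ) / 16 ≤ ((1 - η) * (1 + η)) ^ 2 := by nlinarith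
      nlinarith [sq_nonneg (q1 - q0)]
    have UBnum : (a - b) ^ 2 ≤ 512 * R ^ 4 * (g1 - g0) ^ 2 + 8 / 9 * (q1 - q0) ^ 2 := by
      rw [id2]
      set z := ((q1 - q0) / 2) / ((1 - η) * (1 + η)) with hzdef
      nlinarith [sq_nonneg (16 * R ^ 2 * (g1 - g0) + z)]
    have UB : (a - b) ^ 2 / (2 * (a + b))
        ≤ (512 * R ^ 4 * (g1 - g0) ^ 2 + 8 / 9 * (q1 - q0) ^ 2) / (28 * (R ^ 2 * G)) := by
      apply div_le_div₀ (by positivity) UBnum (by positivity) (by linarith)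
    -- combine
    set T := (16 * R ^ 2 * G / 2 - (q0 + q1) / 2) - P with hT
    have K1 : T + (q1 - q0) ^ 2 / (8 * (R ^ 2 * G))
        ≤ (512 * R ^ 4 * (g1 - g0) ^ 2 + 8 / 9 * (q1 - q0) ^ 2) / (28 * (R ^ 2 * G)) := by
      have e : (a + b) / 2 - P = T + ((q0 + q1) - q0 / (1 - η) - q1 / (1 + η)) / 2 := by
        rw [ha, hb, hT, hGdef]; ring
      have e' : (q1 - q0) ^ 2 / (8 * (R ^ 2 * G)) = (q1 - q0) ^ 2 / (4 * (R ^ 2 * G)) / 2 := by
        field_simp; ring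
      rw [e'] 
      linarith
    have hRG : 0 < R ^ 2 * G := by positivity
    have K1' : R ^ 2 * G * T + (q1 - q0) ^ 2 / 8
        ≤ (512 * R ^ 4 * (g1 - g0) ^ 2 + 8 / 9 * (q1 - q0) ^ 2) / 28 := by
      have := mul_le_mul_of_nonneg_left K1 hRG.le
      have e1 : R ^ 2 * G * (T + (q1 - q0) ^ 2 / (8 * (R ^ 2 * G)))
          = R ^ 2 * G * T + (q1 - q0) ^ 2 / 8 := by
        field_simp
      have e2 : R ^ 2 * G * ((512 * R ^ 4 * (g1 - g0) ^ 2 + 8 / 9 * (q1 - q0) ^ 2)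
            / (28 * (R ^ 2 * G)))
          = (512 * R ^ 4 * (g1 - g0) ^ 2 + 8 / 9 * (q1 - q0) ^ 2) / 28 := by
        field_simp
      rw [e1, e2] at this
      exact this
    have goal' : R ^ 2 * T * G + 47 / 504 * (q1 - q0) ^ 2 ≤ 128 / 7 * R ^ 4 * (g1 - g0) ^ 2 := by
      linarith
    have e3 : R ^ 2 * T + 47 / 504 * ((q1 - q0) ^ 2 / G)
        = (R ^ 2 * T * G + 47 / 504 * (q1 - q0) ^ 2) / G := by
      field_simp
    have e4 : 128 / 7 * R ^ 4 * ((g1 - g0) ^ 2 / G) = (128 / 7 * R ^ 4 * (g1 - g0) ^ 2) / G := by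
      ring
    rw [e3, e4]
    exact div_le_div_of_nonneg_right goal' hG.le

/-- Round 2 (first moments), one index. -/
lemma round2_index {V : Type*} [NormedAddCommGroup V] [InnerProductSpace ℝ V]
    {R g0 g1 q0 q1 P : ℝ} {m0 m1 : V} (hR : 0 < R) (hg0 : 0 ≤ g0) (hg1 : 0 ≤ g1)
    (hq0 : 0 ≤ q0) (hq1 : 0 ≤ q1) (hq0' : q0 ≤ R ^ 2 * g0) (hq1' : q1 ≤ R ^ 2 * g1)
    (hm0 : ‖m0‖ ≤ R * g0) (hm1 : ‖m1‖ ≤ R * g1) (hP : 0 ≤ P)
    (h : ∀ v : V, ‖v‖ ≤ R / 2 →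
      (16 * R ^ 2 * g0 - (q0 + 2 * ⟪v, m0⟫_ℝ + ‖v‖ ^ 2 * g0)) *
        (16 * R ^ 2 * g1 - (q1 - 2 * ⟪v, m1⟫_ℝ + ‖v‖ ^ 2 * g1)) ≤ P ^ 2) :
    R ^ 2 * ((16 * R ^ 2 * (g0 + g1) / 2 - (q0 + q1) / 2) - P)
      + 117 / 440 * R ^ 2 * (‖m1 - m0‖ ^ 2 / (g0 + g1))
      ≤ 6 / 55 * (4225 / 16 * R ^ 4 * ((g1 - g0) ^ 2 / (g0 + g1))
          + (q1 - q0) ^ 2 / (g0 + g1)) := by
  have hR2 : 0 < R ^ 2 := by positivity
  rcases (add_nonneg hg0 hg1).eq_or_lt with hG | hG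
  · have h0 : g0 = 0 := by linarith
    have h1 : g1 = 0 := by linarith
    have h2 : q0 = 0 := by nlinarith
    have h3 : q1 = 0 := by nlinarith
    subst h0 h1 h2 h3
    simp only [add_zero, mul_zero, zero_div, zero_sub, sub_self, ne_eq,
      OfNat.ofNat_ne_zero, not_false_eq_true, zero_pow, div_zero]
    nlinarith
  · set G := g0 + g1 with hGdef
    set n := ‖m1 - m0‖ with hn
    have hn0 : 0 ≤ n := norm_nonneg _
    have hnRG : n ≤ R * G := by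
      calc n ≤ ‖m1‖ + ‖m0‖ := norm_sub_le _ _
        _ ≤ R * g1 + R * g0 := add_le_add hm1 hm0
        _ = R * G := by rw [hGdef]; ring
    set v : V := (1 / (2 * G)) • (m1 - m0) with hv
    have hvn : ‖v‖ = n / (2 * G) := by
      rw [hv, norm_smul, Real.norm_eq_abs, abs_of_pos (by positivity), hn]; ring
    have hvR : ‖v‖ ≤ R / 2 := by
      rw [hvn, div_le_iff₀ (by positivity)]; nlinarith
    have hv0 : 0 ≤ ‖v‖ := norm_nonneg _
    have hvsq : ‖v‖ ^ 2 ≤ R ^ 2 / 4 := by nlinarith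
    have hin : ⟪v, m1⟫_ℝ - ⟪v, m0⟫_ℝ = n ^ 2 / (2 * G) := by
      rw [← inner_sub_right, hv, real_inner_smul_left, real_inner_self_eq_norm_sq, hn]; ring
    have hi0 : |⟪v, m0⟫_ℝ| ≤ ‖v‖ * (R * g0) :=
      le_trans (abs_real_inner_le_norm _ _) (mul_le_mul_of_nonneg_left hm0 hv0)
    have hi1 : |⟪v, m1⟫_ℝ| ≤ ‖v‖ * (R * g1) :=
      le_trans (abs_real_inner_le_norm _ _) (mul_le_mul_of_nonneg_left hm1 hv0)
    obtain ⟨hi0l, hi0u⟩ := abs_le.mp hi0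
    obtain ⟨hi1l, hi1u⟩ := abs_le.mp hi1
    have hPL := h v hvR
    set a := 16 * R ^ 2 * g0 - (q0 + 2 * ⟪v, m0⟫_ℝ + ‖v‖ ^ 2 * g0) with ha
    set b := 16 * R ^ 2 * g1 - (q1 - 2 * ⟪v, m1⟫_ℝ + ‖v‖ ^ 2 * g1) with hb
    have hRg0 : 0 ≤ R * g0 := by positivity
    have hRg1 : 0 ≤ R * g1 := by positivity
    have ha55 : 55 / 4 * R ^ 2 * g0 ≤ a := by
      rw [ha]
      have h1 : ‖v‖ * (R * g0) ≤ R / 2 * (R * g0) := mul_le_mul_of_nonneg_right hvR hRg0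
      have h2 : ‖v‖ ^ 2 * g0 ≤ R ^ 2 / 4 * g0 := mul_le_mul_of_nonneg_right hvsq hg0
      nlinarith
    have hb55 : 55 / 4 * R ^ 2 * g1 ≤ b := by
      rw [hb]
      have h1 : ‖v‖ * (R * g1) ≤ R / 2 * (R * g1) := mul_le_mul_of_nonneg_right hvR hRg1
      have h2 : ‖v‖ ^ 2 * g1 ≤ R ^ 2 / 4 * g1 := mul_le_mul_of_nonneg_right hvsq hg1
      nlinarith
    have ha0 : 0 ≤ a := le_trans (by positivity) ha55
    have hb0 : 0 ≤ b := le_trans (by positivity) hb55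
    have hab55 : 55 / 4 * R ^ 2 * G ≤ a + b := by rw [hGdef]; linarith
    have habpos : 0 < a + b := lt_of_lt_of_le (by positivity) hab55
    have key := half_sum_sub_le ha0 hb0 habpos hP hPL
    set T := (16 * R ^ 2 * G / 2 - (q0 + q1) / 2) - P with hT
    have hvsqG : ‖v‖ ^ 2 * G = n ^ 2 / (4 * G) := by
      rw [hvn]; field_simp; ring
    have e : (a + b) / 2 - P = T + 3 / 8 * (n ^ 2 / G) := by
      have e1 : (a + b) / 2 - P
          = T + (⟪v, m1⟫_ℝ - ⟪v, m0⟫_ℝ) - ‖v‖ ^ 2 * G / 2 := by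
        rw [ha, hb, hT, hGdef]; ring
      rw [e1, hin, hvsqG]; field_simp; ring
    -- |a - b|
    have hsum : |⟪v, m0⟫_ℝ + ⟪v, m1⟫_ℝ| ≤ R * n / 2 := by
      have h1 : ‖v‖ * (R * g0) + ‖v‖ * (R * g1) = R * n / 2 := by
        have h0 : ‖v‖ * (R * g0) + ‖v‖ * (R * g1) = ‖v‖ * R * G := by rw [hGdef]; ring
        rw [h0, hvn]; field_simp
      rw [abs_le]; constructor <;> linarith
    have hab : a - b = -(16 * R ^ 2 * (g1 - g0)) + (q1 - q0)
        - 2 * (⟪v, m0⟫_ℝ + ⟪v, m1⟫_ℝ) + ‖v‖ ^ 2 * (g1 - g0) := by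
      rw [ha, hb]; ring
    have habs : |a - b| ≤ 65 / 4 * R ^ 2 * |g1 - g0| + |q1 - q0| + R * n := by
      rw [hab]
      have h1 : |‖v‖ ^ 2 * (g1 - g0)| ≤ R ^ 2 / 4 * |g1 - g0| := by
        rw [abs_mul, abs_of_nonneg (by positivity : (0:ℝ) ≤ ‖v‖ ^ 2)]
        exact mul_le_mul_of_nonneg_right hvsq (abs_nonneg _)
      have h2 : |-(16 * R ^ 2 * (g1 - g0))| = 16 * R ^ 2 * |g1 - g0| := by
        rw [abs_neg, abs_mul, abs_of_pos (by positivity : (0:ℝ) < 16 * R ^ 2)]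
      have h3 : |2 * (⟪v, m0⟫_ℝ + ⟪v, m1⟫_ℝ)| ≤ R * n := by
        rw [abs_mul, abs_of_pos (by norm_num : (0:ℝ) < 2)]; linarith
      calc |-(16 * R ^ 2 * (g1 - g0)) + (q1 - q0) - 2 * (⟪v, m0⟫_ℝ + ⟪v, m1⟫_ℝ)
              + ‖v‖ ^ 2 * (g1 - g0)|
          ≤ |-(16 * R ^ 2 * (g1 - g0)) + (q1 - q0) - 2 * (⟪v, m0⟫_ℝ + ⟪v, m1⟫_ℝ)|
              + |‖v‖ ^ 2 * (g1 - g0)| := abs_add_le _ _
        _ ≤ |-(16 * R ^ 2 * (g1 - g0)) + (q1 - q0)| + |2 * (⟪v, m0⟫_ℝ + ⟪v, m1⟫_ℝ)|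
              + |‖v‖ ^ 2 * (g1 - g0)| := by
            gcongr; exact abs_sub _ _
        _ ≤ |-(16 * R ^ 2 * (g1 - g0))| + |q1 - q0| + |2 * (⟪v, m0⟫_ℝ + ⟪v, m1⟫_ℝ)|
              + |‖v‖ ^ 2 * (g1 - g0)| := by
            gcongr; exact abs_add_le _ _
        _ ≤ 65 / 4 * R ^ 2 * |g1 - g0| + |q1 - q0| + R * n := by
            rw [h2]; linarith
    have UBnum : (a - b) ^ 2
        ≤ 3 * (4225 / 16 * R ^ 4 * (g1 - g0) ^ 2 + (q1 - q0) ^ 2 + R ^ 2 * n ^ 2) := by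
      have h1 : (a - b) ^ 2 ≤ (65 / 4 * R ^ 2 * |g1 - g0| + |q1 - q0| + R * n) ^ 2 := by
        rw [← sq_abs (a - b)]
        exact pow_le_pow_left₀ (abs_nonneg _) habs 2
      refine le_trans h1 ?_
      have e1 : (g1 - g0) ^ 2 = |g1 - g0| ^ 2 := (sq_abs _).symm
      have e2 : (q1 - q0) ^ 2 = |q1 - q0| ^ 2 := (sq_abs _).symm
      rw [e1, e2]
      set x := 65 / 4 * R ^ 2 * |g1 - g0| with hx
      set y := |q1 - q0| with hy
      set z := R * n with hz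
      have : 4225 / 16 * R ^ 4 * |g1 - g0| ^ 2 = x ^ 2 := by rw [hx]; ring
      have : R ^ 2 * n ^ 2 = z ^ 2 := by rw [hz]; ring
      nlinarith [sq_nonneg (x - y), sq_nonneg (y - z), sq_nonneg (x - z)]
    have UB : (a - b) ^ 2 / (2 * (a + b))
        ≤ 3 * (4225 / 16 * R ^ 4 * (g1 - g0) ^ 2 + (q1 - q0) ^ 2 + R ^ 2 * n ^ 2)
            / (55 / 2 * (R ^ 2 * G)) := by
      apply div_le_div₀ (by positivity) UBnum (by positivity) (by linarith)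
    have K1 : T + 3 / 8 * (n ^ 2 / G)
        ≤ 3 * (4225 / 16 * R ^ 4 * (g1 - g0) ^ 2 + (q1 - q0) ^ 2 + R ^ 2 * n ^ 2)
            / (55 / 2 * (R ^ 2 * G)) := by
      rw [← e]; linarith
    have hRG : 0 < R ^ 2 * G := by positivity
    have K1' : R ^ 2 * G * T + 3 / 8 * R ^ 2 * n ^ 2
        ≤ 6 / 55 * (4225 / 16 * R ^ 4 * (g1 - g0) ^ 2 + (q1 - q0) ^ 2 + R ^ 2 * n ^ 2) := by
      have := mul_le_mul_of_nonneg_left K1 hRG.le
      have e1 : R ^ 2 * G * (T + 3 / 8 * (n ^ 2 / G))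
          = R ^ 2 * G * T + 3 / 8 * R ^ 2 * n ^ 2 := by
        field_simp
      have e2 : R ^ 2 * G * (3 * (4225 / 16 * R ^ 4 * (g1 - g0) ^ 2 + (q1 - q0) ^ 2
            + R ^ 2 * n ^ 2) / (55 / 2 * (R ^ 2 * G)))
          = 6 / 55 * (4225 / 16 * R ^ 4 * (g1 - g0) ^ 2 + (q1 - q0) ^ 2 + R ^ 2 * n ^ 2) := by
        field_simp; ring
      rw [e1, e2] at this
      exact this
    have goal' : R ^ 2 * T * G + 117 / 440 * R ^ 2 * n ^ 2
        ≤ 6 / 55 * (4225 / 16 * R ^ 4 * (g1 - g0) ^ 2 + (q1 - q0) ^ 2) := by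
      linarith
    have e3 : R ^ 2 * T + 117 / 440 * R ^ 2 * (n ^ 2 / G)
        = (R ^ 2 * T * G + 117 / 440 * R ^ 2 * n ^ 2) / G := by
      field_simp
    have e4 : 6 / 55 * (4225 / 16 * R ^ 4 * ((g1 - g0) ^ 2 / G) + (q1 - q0) ^ 2 / G)
        = (6 / 55 * (4225 / 16 * R ^ 4 * (g1 - g0) ^ 2 + (q1 - q0) ^ 2)) / G := by
      ring
    rw [e3, e4]
    exact div_le_div_of_nonneg_right goal' hG.le

/-- **Algebraic core of the moment-stability lemma.**  `g, q, m` are the masses, second moments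
and first moments of two finite families of cells, `P i` is the `(Λ - |x|²)`-mass of the
`i`-th midpoint cell (`Λ = 16 R²`); `hPL` is what Prékopa–Leindler gives cell by cell and
`hsumP` is the tiling property. -/
theorem moment_alg {V : Type*} [NormedAddCommGroup V] [InnerProductSpace ℝ V]
    {ι : Type*} [Fintype ι] {R : ℝ} (hR : 0 < R) (g0 g1 q0 q1 P : ι → ℝ) (m0 m1 : ι → V)
    (hg0 : ∀ i, 0 ≤ g0 i) (hg1 : ∀ i, 0 ≤ g1 i) (hq0 : ∀ i, 0 ≤ q0 i) (hq1 : ∀ i, 0 ≤ q1 i)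
    (hq0' : ∀ i, q0 i ≤ R ^ 2 * g0 i) (hq1' : ∀ i, q1 i ≤ R ^ 2 * g1 i)
    (hm0 : ∀ i, ‖m0 i‖ ≤ R * g0 i) (hm1 : ∀ i, ‖m1 i‖ ≤ R * g1 i) (hP : ∀ i, 0 ≤ P i)
    (hsumP : ∑ i, P i ≤ ∑ i, (16 * R ^ 2 * (g0 i + g1 i) / 2 - (q0 i + q1 i) / 2))
    (hPL : ∀ i (v : V) (η : ℝ), ‖v‖ ≤ R / 2 → |η| ≤ 1 / 2 →
      (16 * R ^ 2 * g0 i - (q0 i + 2 * ⟪v, m0 i⟫_ℝ + ‖v‖ ^ 2 * g0 i) / (1 - η)) *
        (16 * R ^ 2 * g1 i - (q1 i - 2 * ⟪v, m1 i⟫_ℝ + ‖v‖ ^ 2 * g1 i) / (1 + η))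
          ≤ P i ^ 2) :
    (∑ i, (q1 i - q0 i) ^ 2 / (g0 i + g1 i)
        ≤ 197 * R ^ 4 * ∑ i, (g1 i - g0 i) ^ 2 / (g0 i + g1 i)) ∧
    (∑ i, ‖m1 i - m0 i‖ ^ 2 / (g0 i + g1 i)
        ≤ 190 * R ^ 2 * ∑ i, (g1 i - g0 i) ^ 2 / (g0 i + g1 i)) := by
  have hR2 : 0 < R ^ 2 := by positivity
  have hR4 : 0 < R ^ 4 := by positivity
  set SD := ∑ i, ((16 * R ^ 2 * (g0 i + g1 i) / 2 - (q0 i + q1 i) / 2) - P i) with hSD
  have hSD0 : 0 ≤ SD := by
    rw [hSD, Finset.sum_sub_distrib]; linarith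
  set SXg := ∑ i, (g1 i - g0 i) ^ 2 / (g0 i + g1 i) with hSXg
  set SXq := ∑ i, (q1 i - q0 i) ^ 2 / (g0 i + g1 i) with hSXq
  set SXm := ∑ i, ‖m1 i - m0 i‖ ^ 2 / (g0 i + g1 i) with hSXm
  have hSXg0 : 0 ≤ SXg :=
    Finset.sum_nonneg fun i _ => div_nonneg (sq_nonneg _) (add_nonneg (hg0 i) (hg1 i))
  -- round 1
  have r1 : R ^ 2 * SD + 47 / 504 * SXq ≤ 128 / 7 * R ^ 4 * SXg := by
    have := Finset.sum_le_sum (s := Finset.univ) fun i _ =>
      round1_index hR (hg0 i) (hg1 i) (hq0 i) (hq1 i) (hq0' i) (hq1' i) (hP i)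
        (fun η hη => by
          have h := hPL i 0 η (by simp; positivity) hη
          simpa using h)
    rw [Finset.sum_add_distrib, ← Finset.mul_sum, ← Finset.mul_sum, ← Finset.mul_sum] at this
    exact this
  have hq : SXq ≤ 9216 / 47 * R ^ 4 * SXg := by nlinarith
  have hR4SXg : 0 ≤ R ^ 4 * SXg := by positivity
  refine ⟨by nlinarith, ?_⟩
  -- round 2
  have r2 : R ^ 2 * SD + 117 / 440 * R ^ 2 * SXm
      ≤ 6 / 55 * (4225 / 16 * R ^ 4 * SXg + SXq) := by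
    have := Finset.sum_le_sum (s := Finset.univ) fun i _ =>
      round2_index hR (hg0 i) (hg1 i) (hq0 i) (hq1 i) (hq0' i) (hq1' i) (hm0 i) (hm1 i) (hP i)
        (fun v hv => by
          have h := hPL i v 0 hv (by norm_num)
          simpa using h)
    rw [Finset.sum_add_distrib, ← Finset.mul_sum, ← Finset.mul_sum, ← Finset.mul_sum,
      Finset.sum_add_distrib, ← Finset.mul_sum] at this
    exact this
  have h3 : R ^ 2 * (117 / 440 * SXm) ≤ R ^ 2 * (117 / 440 * (190 * R ^ 2 * SXg)) := by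
    have e : R ^ 2 * (117 / 440 * (190 * R ^ 2 * SXg)) = 117 / 440 * 190 * (R ^ 4 * SXg) := by
      ring
    rw [e]
    nlinarith
  have h4 := le_of_mul_le_mul_left h3 hR2
  linarith

end Crest.Agent.Helper12.OT
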