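import Mathlib
import Crest.Agent.Helper12.OT.Alg

/-!
# Row 82 (S0109), package (S) = (B3): Prékopa–Leindler on cells ⇒ moment stability

Measure-theoretic part.  `PLHalf d` is the midpoint Prékopa–Leindler inequality on
`EuclideanSpace ℝ (Fin d)` (package (P)), taken as a hypothesis here.
Helper material only.
-/

set_option autoImplicit false

namespace Crest.Agent.Helper12.OT

open MeasureTheory Metric
open scoped ENNReal InnerProductSpace

/-- Midpoint Prékopa–Leindler inequality on `ℝᵈ`, `ℝ≥0∞`-valued form. -/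
def PLHalf (d : ℕ) : Prop :=
  ∀ f g h : EuclideanSpace ℝ (Fin d) → ℝ≥0∞, Measurable f → Measurable g → Measurable h →
    (∀ x y, f x * g y ≤ h ((1 / 2 : ℝ) • (x + y)) ^ 2) →
    (∫⁻ x, f x) * (∫⁻ x, g x) ≤ (∫⁻ x, h x) ^ 2

/-- Cauchy–Schwarz in the form used for the perspective function. -/
lemma perspective_real {α β u w : ℝ} (hu : 0 < u) (hw : 0 < w) (huw : u + w = 2) :
    (α + β) ^ 2 ≤ 2 * (α ^ 2 / u + β ^ 2 / w) := by
  have e : 2 * (α ^ 2 / u + β ^ 2 / w) = (2 * (α ^ 2 * w + β ^ 2 * u)) / (u * w) := by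
    field_simp
  rw [e, le_div_iff₀ (mul_pos hu hw)]
  have h2 : 2 * (α ^ 2 * w + β ^ 2 * u) = (u + w) * (α ^ 2 * w + β ^ 2 * u) := by rw [huw]
  rw [h2]
  nlinarith [sq_nonneg (α * w - β * u)]

section
variable {d : ℕ}

local notation "E" => EuclideanSpace ℝ (Fin d)

/-- Joint convexity of `(p, s) ↦ ‖p‖² / s` at the midpoint. -/
lemma perspective_mid (p r : E) {η : ℝ} (hη : |η| ≤ 1 / 2) :
    ‖(1 / 2 : ℝ) • (p + r)‖ ^ 2 ≤ (‖p‖ ^ 2 / (1 - η) + ‖r‖ ^ 2 / (1 + η)) / 2 := by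
  obtain ⟨h1, h2⟩ := abs_le.mp hη
  have hu : 0 < 1 - η := by linarith
  have hw : 0 < 1 + η := by linarith
  have hn : ‖(1 / 2 : ℝ) • (p + r)‖ = ‖p + r‖ / 2 := by
    rw [norm_smul, Real.norm_eq_abs, abs_of_pos (by norm_num : (0:ℝ) < 1 / 2)]; ring
  have h3 : ‖p + r‖ ≤ ‖p‖ + ‖r‖ := norm_add_le _ _
  have h4 : ‖p + r‖ ^ 2 ≤ (‖p‖ + ‖r‖) ^ 2 := pow_le_pow_left₀ (norm_nonneg _) h3 2
  have h5 := perspective_real (α := ‖p‖) (β := ‖r‖) hu hw (by ring)
  rw [hn]
  nlinarith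

/-- The three weights used in the Prékopa–Leindler step. -/
lemma weights_mid {R : ℝ} (hR : 0 < R) {x y v : E} {η : ℝ} (hx : ‖x‖ ≤ R) (hy : ‖y‖ ≤ R)
    (hv : ‖v‖ ≤ R / 2) (hη : |η| ≤ 1 / 2) :
    0 ≤ 16 * R ^ 2 - ‖x + v‖ ^ 2 / (1 - η) ∧ 0 ≤ 16 * R ^ 2 - ‖y - v‖ ^ 2 / (1 + η) ∧
    (16 * R ^ 2 - ‖x + v‖ ^ 2 / (1 - η)) * (16 * R ^ 2 - ‖y - v‖ ^ 2 / (1 + η))
      ≤ (16 * R ^ 2 - ‖(1 / 2 : ℝ) • (x + y)‖ ^ 2) ^ 2 := by
  obtain ⟨h1, h2⟩ := abs_le.mp hη
  have hu : 0 < 1 - η := by linarith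
  have hw : 0 < 1 + η := by linarith
  have hxv : ‖x + v‖ ≤ 3 / 2 * R := by
    calc ‖x + v‖ ≤ ‖x‖ + ‖v‖ := norm_add_le _ _
      _ ≤ 3 / 2 * R := by linarith
  have hyv : ‖y - v‖ ≤ 3 / 2 * R := by
    calc ‖y - v‖ ≤ ‖y‖ + ‖v‖ := norm_sub_le _ _
      _ ≤ 3 / 2 * R := by linarith
  have hxv2 : ‖x + v‖ ^ 2 ≤ 9 / 4 * R ^ 2 := by
    have := pow_le_pow_left₀ (norm_nonneg _) hxv 2
    nlinarith
  have hyv2 : ‖y - v‖ ^ 2 ≤ 9 / 4 * R ^ 2 := by
    have := pow_le_pow_left₀ (norm_nonneg _) hyv 2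
    nlinarith
  have hA : ‖x + v‖ ^ 2 / (1 - η) ≤ 9 / 2 * R ^ 2 := by
    rw [div_le_iff₀ hu]; nlinarith [sq_nonneg R]
  have hB : ‖y - v‖ ^ 2 / (1 + η) ≤ 9 / 2 * R ^ 2 := by
    rw [div_le_iff₀ hw]; nlinarith [sq_nonneg R]
  have hR2 : 0 < R ^ 2 := by positivity
  have hmid := perspective_mid (x + v) (y - v) hη
  have hsum : (x + v) + (y - v) = x + y := by abel
  rw [hsum] at hmid
  set a := 16 * R ^ 2 - ‖x + v‖ ^ 2 / (1 - η) with ha
  set b := 16 * R ^ 2 - ‖y - v‖ ^ 2 / (1 + η) with hb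
  set c := 16 * R ^ 2 - ‖(1 / 2 : ℝ) • (x + y)‖ ^ 2 with hc
  have ha0 : 0 ≤ a := by rw [ha]; linarith
  have hb0 : 0 ≤ b := by rw [hb]; linarith
  have habc : (a + b) / 2 ≤ c := by rw [ha, hb, hc]; linarith
  refine ⟨ha0, hb0, ?_⟩
  have h6 : a * b ≤ ((a + b) / 2) ^ 2 := by nlinarith [sq_nonneg (a - b)]
  have h7 : ((a + b) / 2) ^ 2 ≤ c ^ 2 := pow_le_pow_left₀ (by positivity) habc 2
  linarith

lemma volume_ne_top_of_subset_closedBall {S : Set E} {R : ℝ} (hS : S ⊆ closedBall 0 R) :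
    volume S ≠ ∞ :=
  ((measure_mono hS).trans_lt measure_closedBall_lt_top).ne

lemma integrableOn_of_continuous {F : Type*} [NormedAddCommGroup F] {S : Set E} {R : ℝ}
    (hS : S ⊆ closedBall 0 R) {f : E → F} (hf : Continuous f) : IntegrableOn f S volume :=
  (hf.continuousOn.integrableOn_compact (isCompact_closedBall 0 R)).mono_set hS

/-- Integral of the quadratic weight over a bounded set, in terms of its moments. -/
lemma integral_weight {S : Set E} {R : ℝ} (hS : S ⊆ closedBall 0 R) (Λ c : ℝ) (v : E) :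
    ∫ x in S, (Λ - ‖x + v‖ ^ 2 / c)
      = Λ * volume.real S
        - ((∫ x in S, ‖x‖ ^ 2) + 2 * ⟪v, ∫ x in S, x⟫_ℝ + ‖v‖ ^ 2 * volume.real S) / c := by
  have hid : IntegrableOn (fun x : E => x) S volume := integrableOn_of_continuous hS continuous_id
  have hsq : IntegrableOn (fun x : E => ‖x‖ ^ 2) S volume :=
    integrableOn_of_continuous hS (by fun_prop)
  have hin : IntegrableOn (fun x : E => ⟪v, x⟫_ℝ) S volume :=
    integrableOn_of_continuous hS (by fun_prop)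
  have hin2 : IntegrableOn (fun x : E => 2 * ⟪v, x⟫_ℝ) S volume := hin.const_mul 2
  have hc : IntegrableOn (fun _ : E => (‖v‖ ^ 2 : ℝ)) S volume :=
    integrableOn_of_continuous hS continuous_const
  have h12 : IntegrableOn (fun x : E => ‖x‖ ^ 2 + 2 * ⟪v, x⟫_ℝ) S volume := hsq.add hin2
  have h123 : IntegrableOn (fun x : E => ‖x‖ ^ 2 + 2 * ⟪v, x⟫_ℝ + ‖v‖ ^ 2) S volume :=
    h12.add hc
  have h123c : IntegrableOn (fun x : E => (‖x‖ ^ 2 + 2 * ⟪v, x⟫_ℝ + ‖v‖ ^ 2) / c) S volume :=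
    h123.div_const c
  have hΛ : IntegrableOn (fun _ : E => Λ) S volume :=
    integrableOn_of_continuous hS continuous_const
  have e : ∀ x : E, Λ - ‖x + v‖ ^ 2 / c = Λ - (‖x‖ ^ 2 + 2 * ⟪v, x⟫_ℝ + ‖v‖ ^ 2) / c := by
    intro x; rw [norm_add_sq_real, real_inner_comm]
  simp_rw [e]
  rw [integral_sub hΛ h123c, setIntegral_const, integral_div, integral_add h12 hc,
    integral_add hsq hin2, integral_const_mul, integral_inner hid, setIntegral_const]
  simp only [smul_eq_mul]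
  ring

/-- Prékopa–Leindler on one triple of cells with midpoint inclusion: an inequality between
the masses and the first and second moments of the three cells. -/
lemma cell_PL (hPL : PLHalf d) {R : ℝ} (hR : 0 < R) {A B M : Set E}
    (hAm : MeasurableSet A) (hBm : MeasurableSet B) (hMm : MeasurableSet M)
    (hA : A ⊆ closedBall 0 R) (hB : B ⊆ closedBall 0 R) (hM : M ⊆ closedBall 0 R)
    (hmid : ∀ x ∈ A, ∀ y ∈ B, (1 / 2 : ℝ) • (x + y) ∈ M)
    (v : E) (η : ℝ) (hv : ‖v‖ ≤ R / 2) (hη : |η| ≤ 1 / 2) :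
    (16 * R ^ 2 * volume.real A
        - ((∫ x in A, ‖x‖ ^ 2) + 2 * ⟪v, ∫ x in A, x⟫_ℝ + ‖v‖ ^ 2 * volume.real A) / (1 - η)) *
      (16 * R ^ 2 * volume.real B
        - ((∫ x in B, ‖x‖ ^ 2) - 2 * ⟪v, ∫ x in B, x⟫_ℝ + ‖v‖ ^ 2 * volume.real B) / (1 + η))
      ≤ (16 * R ^ 2 * volume.real M - ∫ x in M, ‖x‖ ^ 2) ^ 2 := by
  set fA : E → ℝ := fun x => 16 * R ^ 2 - ‖x + v‖ ^ 2 / (1 - η) with hfA
  set fB : E → ℝ := fun y => 16 * R ^ 2 - ‖y - v‖ ^ 2 / (1 + η) with hfB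
  set fM : E → ℝ := fun z => 16 * R ^ 2 - ‖z‖ ^ 2 with hfM
  have hfAc : Continuous fA := by rw [hfA]; fun_prop
  have hfBc : Continuous fB := by rw [hfB]; fun_prop
  have hfMc : Continuous fM := by rw [hfM]; fun_prop
  have IA : ∫ x in A, fA x = 16 * R ^ 2 * volume.real A
      - ((∫ x in A, ‖x‖ ^ 2) + 2 * ⟪v, ∫ x in A, x⟫_ℝ + ‖v‖ ^ 2 * volume.real A) / (1 - η) :=
    integral_weight hA _ _ v
  have IB : ∫ x in B, fB x = 16 * R ^ 2 * volume.real B
      - ((∫ x in B, ‖x‖ ^ 2) - 2 * ⟪v, ∫ x in B, x⟫_ℝ + ‖v‖ ^ 2 * volume.real B) / (1 + η) := by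
    have := integral_weight hB (16 * R ^ 2) (1 + η) (-v)
    simp only [← sub_eq_add_neg, inner_neg_left, norm_neg] at this
    rw [hfB]
    simp only
    rw [this]; ring
  have IM : ∫ x in M, fM x = 16 * R ^ 2 * volume.real M - ∫ x in M, ‖x‖ ^ 2 := by
    have := integral_weight hM (16 * R ^ 2) 1 (0 : E)
    simpa using this
  have hxR : ∀ {S : Set E}, S ⊆ closedBall 0 R → ∀ x ∈ S, ‖x‖ ≤ R := fun hS x hx =>
    mem_closedBall_zero_iff.mp (hS hx)
  have hM0 : ∀ z ∈ M, 0 ≤ fM z := by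
    intro z hz
    have h1 := hxR hM z hz
    have h2 : ‖z‖ ^ 2 ≤ R ^ 2 := pow_le_pow_left₀ (norm_nonneg _) h1 2
    simp only [hfM]; nlinarith
  have hA0 : ∀ x ∈ A, 0 ≤ fA x := by
    intro x hx
    exact (weights_mid hR (hxR hA x hx) (hxR hA x hx) hv hη).1
  have hB0 : ∀ y ∈ B, 0 ≤ fB y := by
    intro y hy
    exact (weights_mid hR (hxR hB y hy) (hxR hB y hy) hv hη).2.1
  set F : E → ℝ≥0∞ := A.indicator (fun x => ENNReal.ofReal (fA x)) with hF
  set G : E → ℝ≥0∞ := B.indicator (fun x => ENNReal.ofReal (fB x)) with hG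
  set H : E → ℝ≥0∞ := M.indicator (fun x => ENNReal.ofReal (fM x)) with hH
  have hFm : Measurable F := (ENNReal.measurable_ofReal.comp hfAc.measurable).indicator hAm
  have hGm : Measurable G := (ENNReal.measurable_ofReal.comp hfBc.measurable).indicator hBm
  have hHm : Measurable H := (ENNReal.measurable_ofReal.comp hfMc.measurable).indicator hMm
  have key : ∀ x y, F x * G y ≤ H ((1 / 2 : ℝ) • (x + y)) ^ 2 := by
    intro x y
    by_cases hx : x ∈ A
    · by_cases hy : y ∈ B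
      · have hz := hmid x hx y hy
        obtain ⟨h1, h2, h3⟩ := weights_mid hR (hxR hA x hx) (hxR hB y hy) hv hη
        rw [hF, hG, hH, Set.indicator_of_mem hx, Set.indicator_of_mem hy, Set.indicator_of_mem hz,
          ← ENNReal.ofReal_mul h1, ← ENNReal.ofReal_pow (hM0 _ hz)]
        exact ENNReal.ofReal_le_ofReal h3
      · rw [hG, Set.indicator_of_notMem hy]; simp
    · rw [hF, Set.indicator_of_notMem hx]; simp
  have hpl := hPL F G H hFm hGm hHm key
  have eA : ∫⁻ x, F x = ENNReal.ofReal (∫ x in A, fA x) := by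
    rw [hF, lintegral_indicator hAm,
      ofReal_integral_eq_lintegral_ofReal (integrableOn_of_continuous hA hfAc)
        ((ae_restrict_iff' hAm).mpr (ae_of_all _ hA0))]
  have eB : ∫⁻ x, G x = ENNReal.ofReal (∫ x in B, fB x) := by
    rw [hG, lintegral_indicator hBm,
      ofReal_integral_eq_lintegral_ofReal (integrableOn_of_continuous hB hfBc)
        ((ae_restrict_iff' hBm).mpr (ae_of_all _ hB0))]
  have eM : ∫⁻ x, H x = ENNReal.ofReal (∫ x in M, fM x) := by
    rw [hH, lintegral_indicator hMm,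
      ofReal_integral_eq_lintegral_ofReal (integrableOn_of_continuous hM hfMc)
        ((ae_restrict_iff' hMm).mpr (ae_of_all _ hM0))]
  have iA0 : 0 ≤ ∫ x in A, fA x := setIntegral_nonneg hAm hA0
  have iM0 : 0 ≤ ∫ x in M, fM x := setIntegral_nonneg hMm hM0
  rw [eA, eB, eM, ← ENNReal.ofReal_mul iA0, ← ENNReal.ofReal_pow iM0,
    ENNReal.ofReal_le_ofReal_iff (by positivity), IA, IB, IM] at hpl
  exact hpl

lemma second_moment_nonneg {S : Set E} (hSm : MeasurableSet S) : 0 ≤ ∫ x in S, ‖x‖ ^ 2 :=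
  setIntegral_nonneg hSm (fun x _ => by positivity)

lemma second_moment_le {S : Set E} {R : ℝ} (hSm : MeasurableSet S) (hS : S ⊆ closedBall 0 R) :
    (∫ x in S, ‖x‖ ^ 2) ≤ R ^ 2 * volume.real S := by
  have h := setIntegral_mono_on
    (integrableOn_of_continuous hS (by fun_prop : Continuous fun x : E => ‖x‖ ^ 2))
    (integrableOn_of_continuous hS (continuous_const : Continuous fun _ : E => R ^ 2)) hSm
    (fun x hx => pow_le_pow_left₀ (norm_nonneg _) (mem_closedBall_zero_iff.mp (hS hx)) 2)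
  rw [setIntegral_const, smul_eq_mul, mul_comm] at h
  exact h

lemma first_moment_le {S : Set E} {R : ℝ} (hS : S ⊆ closedBall 0 R) :
    ‖∫ x in S, x‖ ≤ R * volume.real S :=
  norm_setIntegral_le_of_norm_le_const
    (lt_of_le_of_lt (measure_mono hS) measure_closedBall_lt_top)
    (fun _ hx => mem_closedBall_zero_iff.mp (hS hx))

/-- Tiling: the `(Λ - |x|²)`-masses of an a.e.-disjoint family inside `K` are dominated by those
of an a.e.-partition of `K`. -/
lemma sum_cells_le {ι : Type*} [Fintype ι] {R : ℝ} {K : Set E} (hK : K ⊆ closedBall 0 R)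
    (A M : ι → Set E) (hAm : ∀ i, MeasurableSet (A i)) (hMm : ∀ i, MeasurableSet (M i))
    (hAK : ∀ i, A i ⊆ K) (hMK : ∀ i, M i ⊆ K)
    (hAd : Pairwise (Function.onFun (AEDisjoint volume) A))
    (hMd : Pairwise (Function.onFun (AEDisjoint volume) M))
    (hAcov : volume (K \ ⋃ i, A i) = 0) :
    ∑ i, (16 * R ^ 2 * volume.real (M i) - ∫ x in M i, ‖x‖ ^ 2)
      ≤ ∑ i, (16 * R ^ 2 * volume.real (A i) - ∫ x in A i, ‖x‖ ^ 2) := by
  set φ : E → ℝ := fun z => 16 * R ^ 2 - ‖z‖ ^ 2 with hφ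
  have hφc : Continuous φ := by rw [hφ]; fun_prop
  have hI : ∀ {S : Set E}, S ⊆ closedBall 0 R →
      ∫ x in S, φ x = 16 * R ^ 2 * volume.real S - ∫ x in S, ‖x‖ ^ 2 := by
    intro S hS
    have := integral_weight hS (16 * R ^ 2) 1 (0 : E)
    simpa using this
  have hAU : (⋃ i, A i) ⊆ closedBall 0 R := (Set.iUnion_subset hAK).trans hK
  have hMU : (⋃ i, M i) ⊆ closedBall 0 R := (Set.iUnion_subset hMK).trans hK
  have hφ0 : ∀ x ∈ closedBall (0 : E) R, 0 ≤ φ x := by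
    intro x hx
    have h1 : ‖x‖ ≤ R := mem_closedBall_zero_iff.mp hx
    have h2 : ‖x‖ ^ 2 ≤ R ^ 2 := pow_le_pow_left₀ (norm_nonneg _) h1 2
    simp only [hφ]; nlinarith
  have e1 : ∑ i, (16 * R ^ 2 * volume.real (M i) - ∫ x in M i, ‖x‖ ^ 2)
      = ∫ x in ⋃ i, M i, φ x := by
    rw [integral_iUnion_ae (fun i => (hMm i).nullMeasurableSet) hMd
      (integrableOn_of_continuous hMU hφc), tsum_fintype]
    exact Finset.sum_congr rfl fun i _ => (hI ((hMK i).trans hK)).symm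
  have e2 : ∑ i, (16 * R ^ 2 * volume.real (A i) - ∫ x in A i, ‖x‖ ^ 2)
      = ∫ x in ⋃ i, A i, φ x := by
    rw [integral_iUnion_ae (fun i => (hAm i).nullMeasurableSet) hAd
      (integrableOn_of_continuous hAU hφc), tsum_fintype]
    exact Finset.sum_congr rfl fun i _ => (hI ((hAK i).trans hK)).symm
  rw [e1, e2]
  apply setIntegral_mono_set (integrableOn_of_continuous hAU hφc)
  · exact (ae_restrict_iff' (MeasurableSet.iUnion hAm)).mpr
      (ae_of_all _ fun x hx => hφ0 x (hAU hx))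
  · rw [ae_le_set]
    exact measure_mono_null (Set.sdiff_subset_sdiff_left (Set.iUnion_subset hMK)) hAcov

/-- **Moment stability, abstract form** (package (S) = (B3) of the row-82 blueprint).
`A`, `B` are two a.e.-partitions of a bounded set `K ⊆ B(0,R)` indexed by the same finite type,
and `M` is an a.e.-disjoint family in `K` with `(A i + B i)/2 ⊆ M i`.  Then the second and first
moments of the cells are `ℓ²`-Lipschitz in the masses, in the weighted sense below. -/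
theorem moment_stability (hPL : PLHalf d) {ι : Type*} [Fintype ι] {R : ℝ} (hR : 0 ≤ R)
    {K : Set E} (hK : K ⊆ closedBall 0 R) (A B M : ι → Set E)
    (hAm : ∀ i, MeasurableSet (A i)) (hBm : ∀ i, MeasurableSet (B i))
    (hMm : ∀ i, MeasurableSet (M i))
    (hAK : ∀ i, A i ⊆ K) (hBK : ∀ i, B i ⊆ K) (hMK : ∀ i, M i ⊆ K)
    (hmid : ∀ i, ∀ x ∈ A i, ∀ y ∈ B i, (1 / 2 : ℝ) • (x + y) ∈ M i)
    (hAd : Pairwise (Function.onFun (AEDisjoint volume) A))
    (hBd : Pairwise (Function.onFun (AEDisjoint volume) B))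
    (hMd : Pairwise (Function.onFun (AEDisjoint volume) M))
    (hAcov : volume (K \ ⋃ i, A i) = 0) (hBcov : volume (K \ ⋃ i, B i) = 0) :
    (∑ i, ((∫ x in B i, ‖x‖ ^ 2) - ∫ x in A i, ‖x‖ ^ 2) ^ 2
          / (volume.real (A i) + volume.real (B i))
        ≤ 197 * R ^ 4 * ∑ i, (volume.real (B i) - volume.real (A i)) ^ 2
          / (volume.real (A i) + volume.real (B i))) ∧
    (∑ i, ‖(∫ x in B i, x) - ∫ x in A i, x‖ ^ 2 / (volume.real (A i) + volume.real (B i))
        ≤ 190 * R ^ 2 * ∑ i, (volume.real (B i) - volume.real (A i)) ^ 2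
          / (volume.real (A i) + volume.real (B i))) := by
  have hAb : ∀ i, A i ⊆ closedBall 0 R := fun i => (hAK i).trans hK
  have hBb : ∀ i, B i ⊆ closedBall 0 R := fun i => (hBK i).trans hK
  have hMb : ∀ i, M i ⊆ closedBall 0 R := fun i => (hMK i).trans hK
  rcases hR.eq_or_lt with hR0 | hRpos
  · -- degenerate radius: all moments vanish
    subst hR0
    have hq : ∀ S : Set E, MeasurableSet S → S ⊆ closedBall 0 0 → ∫ x in S, ‖x‖ ^ 2 = 0 := by
      intro S hSm hS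
      have h1 := second_moment_le hSm hS
      have h2 := second_moment_nonneg hSm
      have : (0:ℝ) ^ 2 * volume.real S = 0 := by ring
      linarith
    have hm : ∀ S : Set E, S ⊆ closedBall 0 0 → ∫ x in S, x = 0 := by
      intro S hS
      have h1 := first_moment_le hS
      rw [zero_mul] at h1
      exact norm_le_zero_iff.mp h1
    constructor
    · have : ∀ i, ((∫ x in B i, ‖x‖ ^ 2) - ∫ x in A i, ‖x‖ ^ 2) ^ 2
          / (volume.real (A i) + volume.real (B i)) = 0 := by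
        intro i; rw [hq _ (hBm i) (hBb i), hq _ (hAm i) (hAb i)]; simp
      simp [this]
    · have : ∀ i, ‖(∫ x in B i, x) - ∫ x in A i, x‖ ^ 2
          / (volume.real (A i) + volume.real (B i)) = 0 := by
        intro i; rw [hm _ (hBb i), hm _ (hAb i)]; simp
      simp [this]
  · have hR2 : 0 < R ^ 2 := by positivity
    refine moment_alg hRpos (fun i => volume.real (A i)) (fun i => volume.real (B i))
      (fun i => ∫ x in A i, ‖x‖ ^ 2) (fun i => ∫ x in B i, ‖x‖ ^ 2)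
      (fun i => 16 * R ^ 2 * volume.real (M i) - ∫ x in M i, ‖x‖ ^ 2)
      (fun i => ∫ x in A i, x) (fun i => ∫ x in B i, x)
      (fun i => measureReal_nonneg) (fun i => measureReal_nonneg)
      (fun i => second_moment_nonneg (hAm i)) (fun i => second_moment_nonneg (hBm i))
      (fun i => second_moment_le (hAm i) (hAb i)) (fun i => second_moment_le (hBm i) (hBb i))
      (fun i => first_moment_le (hAb i)) (fun i => first_moment_le (hBb i)) ?_ ?_ ?_
    · intro i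
      have h1 := second_moment_le (hMm i) (hMb i)
      have h2 : (0:ℝ) ≤ volume.real (M i) := measureReal_nonneg
      nlinarith
    · have h1 := sum_cells_le hK A M hAm hMm hAK hMK hAd hMd hAcov
      have h2 := sum_cells_le hK B M hBm hMm hBK hMK hBd hMd hBcov
      have e : ∑ i, (16 * R ^ 2 * (volume.real (A i) + volume.real (B i)) / 2
            - ((∫ x in A i, ‖x‖ ^ 2) + ∫ x in B i, ‖x‖ ^ 2) / 2)
          = (∑ i, (16 * R ^ 2 * volume.real (A i) - ∫ x in A i, ‖x‖ ^ 2)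
              + ∑ i, (16 * R ^ 2 * volume.real (B i) - ∫ x in B i, ‖x‖ ^ 2)) / 2 := by
        rw [← Finset.sum_add_distrib, Finset.sum_div]
        exact Finset.sum_congr rfl fun i _ => by ring
      rw [e]; linarith
    · intro i v η hv hη
      exact cell_PL hPL hRpos (hAm i) (hBm i) (hMm i) (hAb i) (hBb i) (hMb i) (hmid i) v η hv hη

end

end Crest.Agent.Helper12.OT
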