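import Crest.Agent.Helper12.OT.Cells
import Crest.Agent.Helper26.OT.PL
import Crest.Agent.Helper46.OT.Cells

/-!
# Row 82 (S0109), WP-S: `moment_stability` in the Spec form

The key lemma (S) = (B3): first moments of Laguerre cells are `ℓ²`-Lipschitz in the cell masses.
Statement verbatim that of `Crest.Agent.Helper75.OT.Spec.moment_stability` (same name, namespace
`Crest.Agent.Helper75.OT`).  Proof: the abstract lemma `Crest.Agent.Helper12.OT.moment_stability`
(Prékopa–Leindler cell by cell + algebra) applied to the Laguerre cells of `w0`, `w1` and of the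
averaged weights, then rescaling Lebesgue measure to the uniform probability measure on `K`.
Helper material only; no Prelude or `Defs` name is unfolded by `unfold`/`simp`/`rw`.
-/

set_option autoImplicit false

noncomputable section

open MeasureTheory Metric
open scoped ENNReal NNReal RealInnerProductSpace

namespace Crest.Agent.Helper12.OT

open Crest.AnalysisR.OT Crest.Agent.Helper75.OT

variable {d : ℕ}

/-- The midpoint Prékopa–Leindler inequality (package (P), helper26). -/
theorem plHalf (d : ℕ) : PLHalf d := fun f g h hf hg hh H => prekopa_leindler f g h hf hg hh H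

/-- Mass of a measurable subset of `K` under the uniform probability measure on `K`. -/
theorem rho_apply_of_subset {K L : Set (E d)} (hL : MeasurableSet L) (hLK : L ⊆ K) :
    (uniformProbOn K) L = (volume K)⁻¹ * volume L := by
  show ((volume K)⁻¹ • (volume : Measure (E d)).restrict K) L = _
  rw [Measure.smul_apply, Measure.restrict_apply hL, Set.inter_eq_left.mpr hLK, smul_eq_mul]

/-- Restriction of the uniform probability measure on `K` to a measurable subset of `K`. -/
theorem rho_restrict_of_subset {K L : Set (E d)} (hL : MeasurableSet L) (hLK : L ⊆ K) :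
    (uniformProbOn K).restrict L = (volume K)⁻¹ • (volume : Measure (E d)).restrict L := by
  show ((volume K)⁻¹ • (volume : Measure (E d)).restrict K).restrict L = _
  rw [Measure.restrict_smul, Measure.restrict_restrict hL, Set.inter_eq_left.mpr hLK]

theorem gM_eq_volume {K : Set (E d)} (hK : Body K) (S : Finset (E d)) (w : E d → ℝ) (c : E d) :
    gM K S w c = (volume K).toReal⁻¹ * volume.real (Lag K S w c) := by
  show ((uniformProbOn K) (Lag K S w c)).toReal = _
  rw [rho_apply_of_subset (measurableSet_Lag hK S w c) (Lag_subset K S w c), ENNReal.toReal_mul,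
    ENNReal.toReal_inv]
  rfl

theorem mM_eq_volume {K : Set (E d)} (hK : Body K) (S : Finset (E d)) (w : E d → ℝ) (c : E d) :
    mM K S w c = (volume K).toReal⁻¹ • ∫ x in Lag K S w c, x := by
  show ∫ x in Lag K S w c, x ∂(uniformProbOn K) = _
  rw [rho_restrict_of_subset (measurableSet_Lag hK S w c) (Lag_subset K S w c),
    integral_smul_measure, ENNReal.toReal_inv]

/-- Cells of distinct atoms are Lebesgue-a.e. disjoint. -/
theorem Lag_aedisjoint (K : Set (E d)) (S : Finset (E d)) (w : E d → ℝ) :
    Pairwise (Function.onFun (AEDisjoint (volume : Measure (E d)))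
      (fun i : S => Lag K S w (i : E d))) := by
  intro i j hij
  show volume (Lag K S w (i : E d) ∩ Lag K S w (j : E d)) = 0
  have hne : (i : E d) - (j : E d) ≠ 0 := sub_ne_zero.mpr (fun h => hij (Subtype.ext h))
  refine measure_mono_null ?_
    (Crest.Agent.Helper46.OT.vol_hyperplane ((i : E d) - (j : E d)) hne (w i - w j))
  rintro x ⟨hx, hx'⟩
  have h1 := hx.2 (j : E d) j.2
  have h2 := hx'.2 (i : E d) i.2
  show ⟪x, (i : E d) - (j : E d)⟫ = w i - w j
  rw [inner_sub_right]
  linarith

/-- The cells cover `K`. -/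
theorem Lag_cover (K : Set (E d)) (S : Finset (E d)) (hS : S.Nonempty) (w : E d → ℝ) :
    volume (K \ ⋃ i : S, Lag K S w (i : E d)) = 0 := by
  have hU : (⋃ i : S, Lag K S w (i : E d)) = K := by
    apply Set.Subset.antisymm
    · exact Set.iUnion_subset fun i => Lag_subset K S w i
    · intro x hx
      have hx' : x ∈ ⋃ c ∈ S, Lag K S w c := by rw [iUnion_Lag K S hS w]; exact hx
      simp only [Set.mem_iUnion, exists_prop] at hx'
      obtain ⟨c, hc, hxc⟩ := hx'
      exact Set.mem_iUnion.mpr ⟨⟨c, hc⟩, hxc⟩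
  rw [hU, Set.sdiff_self, measure_empty]

end Crest.Agent.Helper12.OT

namespace Crest.Agent.Helper75.OT

open Crest.AnalysisR.OT Crest.Agent.Helper12.OT

variable {d : ℕ}

/-- **WP-S / (B3).**  First moments of Laguerre cells are `ℓ²`-Lipschitz in the cell masses. -/
theorem moment_stability {K : Set (E d)} (hK : Body K) {R : ℝ} (hR : ∀ x ∈ K, ‖x‖ ≤ R)
    (S : Finset (E d)) (w0 w1 : E d → ℝ) :
    ∑ c ∈ S, ‖mM K S w1 c - mM K S w0 c‖ ^ 2 / (gM K S w0 c + gM K S w1 c)
      ≤ 300 * R ^ 2 *
        ∑ c ∈ S, (gM K S w1 c - gM K S w0 c) ^ 2 / (gM K S w0 c + gM K S w1 c) := by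
  rcases S.eq_empty_or_nonempty with hS | hS
  · subst hS; simp
  have hR0 : 0 ≤ R := by
    obtain ⟨x, hx⟩ := hK.inter
    exact (norm_nonneg x).trans (hR x (interior_subset hx))
  have hKb : K ⊆ closedBall 0 R := fun x hx => mem_closedBall_zero_iff.mpr (hR x hx)
  set κ : ℝ := (volume K).toReal⁻¹ with hκ
  have hκpos : 0 < κ := inv_pos.mpr (vol_pos hK)
  set wm : E d → ℝ := fun a => (w0 a + w1 a) / 2 with hwm
  have key := (Crest.Agent.Helper12.OT.moment_stability (plHalf d) hR0 hKb
      (fun i : S => Lag K S w0 (i : E d)) (fun i : S => Lag K S w1 (i : E d))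
      (fun i : S => Lag K S wm (i : E d))
      (fun i => measurableSet_Lag hK S w0 i) (fun i => measurableSet_Lag hK S w1 i)
      (fun i => measurableSet_Lag hK S wm i)
      (fun i => Lag_subset K S w0 i) (fun i => Lag_subset K S w1 i)
      (fun i => Lag_subset K S wm i)
      (fun i x hx y hy => Lag_midpoint hK S w0 w1 i hx hy)
      (Lag_aedisjoint K S w0) (Lag_aedisjoint K S w1) (Lag_aedisjoint K S wm)
      (Lag_cover K S hS w0) (Lag_cover K S hS w1)).2
  -- rescale
  have e1 : ∀ c : E d, ‖mM K S w1 c - mM K S w0 c‖ ^ 2 / (gM K S w0 c + gM K S w1 c)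
      = κ * (‖(∫ x in Lag K S w1 c, x) - ∫ x in Lag K S w0 c, x‖ ^ 2
          / (volume.real (Lag K S w0 c) + volume.real (Lag K S w1 c))) := by
    intro c
    rw [mM_eq_volume hK, mM_eq_volume hK, gM_eq_volume hK, gM_eq_volume hK, ← smul_sub,
      norm_smul, Real.norm_eq_abs, abs_of_pos hκpos, ← mul_add, mul_pow, sq κ, mul_assoc,
      mul_div_mul_left _ _ hκpos.ne', mul_div_assoc]
  have e2 : ∀ c : E d, (gM K S w1 c - gM K S w0 c) ^ 2 / (gM K S w0 c + gM K S w1 c)
      = κ * ((volume.real (Lag K S w1 c) - volume.real (Lag K S w0 c)) ^ 2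
          / (volume.real (Lag K S w0 c) + volume.real (Lag K S w1 c))) := by
    intro c
    rw [gM_eq_volume hK, gM_eq_volume hK, ← mul_sub, ← mul_add, mul_pow, sq κ, mul_assoc,
      mul_div_mul_left _ _ hκpos.ne', mul_div_assoc]
  simp only [e1, e2]
  rw [← Finset.mul_sum, ← Finset.mul_sum, ← Finset.sum_coe_sort S, ← Finset.sum_coe_sort S]
  set X := ∑ i : S, (volume.real (Lag K S w1 (i : E d)) - volume.real (Lag K S w0 (i : E d))) ^ 2
      / (volume.real (Lag K S w0 (i : E d)) + volume.real (Lag K S w1 (i : E d))) with hX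
  have hX0 : 0 ≤ X :=
    Finset.sum_nonneg fun i _ => div_nonneg (sq_nonneg _)
      (add_nonneg measureReal_nonneg measureReal_nonneg)
  have hR2X : 0 ≤ R ^ 2 * X := mul_nonneg (sq_nonneg R) hX0
  calc κ * ∑ i : S, ‖(∫ x in Lag K S w1 (i : E d), x) - ∫ x in Lag K S w0 (i : E d), x‖ ^ 2
          / (volume.real (Lag K S w0 (i : E d)) + volume.real (Lag K S w1 (i : E d)))
      ≤ κ * (190 * R ^ 2 * X) := mul_le_mul_of_nonneg_left key hκpos.le
    _ ≤ κ * (300 * R ^ 2 * X) := by
        apply mul_le_mul_of_nonneg_left _ hκpos.le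
        nlinarith
    _ = 300 * R ^ 2 * (κ * X) := by ring

end Crest.Agent.Helper75.OT
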